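import Vale.Agent.P327.Main
import Vale.Agent.P327.Norm

namespace Vale.Agent.Results.P327.Rigidity

open Vale.Agent.P327

theorem result (π : Degrees → Degrees) (hπ : Function.Bijective π)
    (h : ∀ a b : Degrees, a ≤ b ↔ π a ≤ π b) : ∀ a : Degrees, π a = a := by
  classical
  let dg : C → Degrees := fun A => ⟨deg {n | A n = true}, _, rfl⟩
  have hs : Function.Surjective dg := by
    rintro ⟨_, A, rfl⟩
    exact ⟨fun n => decide (n ∈ A), Subtype.ext (by simp [dg])⟩
  have hl : ∀ A B, dg A ≤ dg B ↔ Red A B := fun A B => deg_le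
  choose p hp using fun X => hs (π (dg X))
  have hA : Aut p := ⟨fun X Y => by rw [← hl, ← hl, hp, hp, ← h], fun Y => by
    obtain ⟨a, ha⟩ := hπ.2 (dg Y)
    obtain ⟨X, rfl⟩ := hs a
    exact ⟨X, by rw [← hl, ← hl, hp, ha]; exact ⟨le_rfl, le_rfl⟩⟩⟩
  intro a
  obtain ⟨X, rfl⟩ := hs a
  rw [← hp]
  exact le_antisymm ((hl _ _).2 (hA.rigid X).2) ((hl _ _).2 (hA.rigid X).1)

end Vale.Agent.Results.P327.Rigidity
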